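import Mathlib

/-!
# Generic facts on `ℓ²`-sums `lp E 2` (helper27)

* `separableSpace_lp_two` : a countable `ℓ²`-sum of separable spaces is separable.
* `not_finiteDimensional_lp_two` : an `ℓ²`-sum with an infinite-dimensional summand is
  infinite-dimensional.
-/

set_option autoImplicit false
set_option linter.unusedSectionVars false
set_option linter.unusedVariables false

open scoped ENNReal
open TopologicalSpace

namespace Crest.Agent.Helper27

section LpSum

variable {α : Type*} {E : α → Type*} [∀ i, NormedAddCommGroup (E i)] [∀ i, NormedSpace ℝ (E i)]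

/-- Every element of `lp E 2` is in the closure of the span of the one-block elements. -/
theorem mem_closure_span_single [DecidableEq α] (f : lp E 2) :
    f ∈ closure ((Submodule.span ℝ (⋃ i, Set.range (lp.single (E := E) 2 i)) :
      Submodule ℝ (lp E 2)) : Set (lp E 2)) := by
  have h := lp.hasSum_single (by norm_num : (2 : ℝ≥0∞) ≠ ⊤) f
  refine mem_closure_of_tendsto h (Filter.Eventually.of_forall fun s => ?_)
  refine Submodule.sum_mem _ fun i _ => Submodule.subset_span ?_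
  exact Set.mem_iUnion.mpr ⟨i, Set.mem_range_self _⟩

/-- A countable `ℓ²`-sum of separable spaces is separable. -/
theorem separableSpace_lp_two [Countable α] [∀ i, SeparableSpace (E i)] :
    SeparableSpace (lp E 2) := by
  classical
  rw [← isSeparable_univ_iff]
  have h1 : IsSeparable (⋃ i, Set.range (lp.single (E := E) 2 i)) :=
    IsSeparable.iUnion fun i => isSeparable_range (lp.isometry_single i).continuous
  have h2 := (h1.span (R := ℝ)).closure
  exact h2.mono fun f _ => mem_closure_span_single f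

/-- An `ℓ²`-sum with an infinite-dimensional summand is infinite-dimensional. -/
theorem not_finiteDimensional_lp_two (i : α) (hi : ¬ FiniteDimensional ℝ (E i)) :
    ¬ FiniteDimensional ℝ (lp E 2) := by
  classical
  intro h
  apply hi
  have hinj : Function.Injective (lp.lsingle (𝕜 := ℝ) (E := E) 2 i) := by
    intro a b hab
    have h1 : lp.single (E := E) 2 i a = lp.single 2 i b := hab
    have := congrArg (fun f : lp E 2 => f i) h1
    simpa using this
  exact FiniteDimensional.of_injective _ hinj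

/-- `‖f‖² = ∑ ‖f i‖²` in `lp E 2`, as a `HasSum`. -/
theorem hasSum_norm_sq (f : lp E 2) : HasSum (fun i => ‖f i‖ ^ 2) (‖f‖ ^ 2) := by
  have h2 : (2 : ℝ≥0∞).toReal = 2 := by simp
  have h := lp.hasSum_norm (by rw [h2]; norm_num) f
  rw [h2] at h
  simpa only [Real.rpow_two] using h

/-- `∑_{i ∈ s} ‖f i‖² ≤ ‖f‖²` in `lp E 2`. -/
theorem sum_norm_sq_le (f : lp E 2) (s : Finset α) : ∑ i ∈ s, ‖f i‖ ^ 2 ≤ ‖f‖ ^ 2 :=
  sum_le_hasSum s (fun i _ => sq_nonneg _) (hasSum_norm_sq f)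

/-- `ℓ²` triangle inequality with blockwise lower bounds: if `c i ≤ (‖a i‖ + ‖b i‖)²` for all
`i` and `∑ c i = C`, then `√C ≤ ‖a‖ + ‖b‖`. -/
theorem sqrt_le_norm_add_norm (a b : lp E 2) (c : α → ℝ) (C : ℝ)
    (hc : ∀ i, c i ≤ (‖a i‖ + ‖b i‖) ^ 2) (hC : HasSum c C) : Real.sqrt C ≤ ‖a‖ + ‖b‖ := by
  have hU : HasSum (fun i => ‖(lp.toNorm a + lp.toNorm b) i‖ ^ 2)
      (‖lp.toNorm a + lp.toNorm b‖ ^ 2) := hasSum_norm_sq _
  have hle : C ≤ ‖lp.toNorm a + lp.toNorm b‖ ^ 2 := by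
    refine hasSum_le (fun i => ?_) hC hU
    have h1 : (lp.toNorm a + lp.toNorm b) i = ‖a i‖ + ‖b i‖ := rfl
    rw [h1, Real.norm_of_nonneg (by positivity)]
    exact hc i
  have htri : ‖lp.toNorm a + lp.toNorm b‖ ≤ ‖a‖ + ‖b‖ := by
    have h := norm_add_le (lp.toNorm a) (lp.toNorm b)
    rwa [lp.norm_toNorm, lp.norm_toNorm] at h
  calc Real.sqrt C ≤ Real.sqrt (‖lp.toNorm a + lp.toNorm b‖ ^ 2) := Real.sqrt_le_sqrt hle
    _ = ‖lp.toNorm a + lp.toNorm b‖ := Real.sqrt_sq (norm_nonneg _)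
    _ ≤ ‖a‖ + ‖b‖ := htri

/-- Blockwise midpoint inequalities `√(4‖xᵢ‖² + t²‖yᵢ‖²) ≤ ‖xᵢ + t yᵢ‖ + ‖xᵢ - t yᵢ‖` add up in
the `ℓ²`-sum. -/
theorem sqrt_le_midpoint (x y : lp E 2) (t : ℝ)
    (h : ∀ i, Real.sqrt (4 * ‖x i‖ ^ 2 + t ^ 2 * ‖y i‖ ^ 2) ≤
      ‖x i + t • y i‖ + ‖x i - t • y i‖) :
    Real.sqrt (4 * ‖x‖ ^ 2 + t ^ 2 * ‖y‖ ^ 2) ≤ ‖x + t • y‖ + ‖x - t • y‖ := by
  refine sqrt_le_norm_add_norm (x + t • y) (x - t • y)
    (fun i => 4 * ‖x i‖ ^ 2 + t ^ 2 * ‖y i‖ ^ 2) _ (fun i => ?_) ?_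
  · have h0 : 0 ≤ 4 * ‖x i‖ ^ 2 + t ^ 2 * ‖y i‖ ^ 2 := by positivity
    have h1 : (x + t • y) i = x i + t • y i := rfl
    have h2 : (x - t • y) i = x i - t • y i := rfl
    rw [h1, h2]
    calc 4 * ‖x i‖ ^ 2 + t ^ 2 * ‖y i‖ ^ 2
        = Real.sqrt (4 * ‖x i‖ ^ 2 + t ^ 2 * ‖y i‖ ^ 2) ^ 2 := (Real.sq_sqrt h0).symm
      _ ≤ (‖x i + t • y i‖ + ‖x i - t • y i‖) ^ 2 :=
          pow_le_pow_left₀ (Real.sqrt_nonneg _) (h i) 2
  · exact ((hasSum_norm_sq x).mul_left 4).add ((hasSum_norm_sq y).mul_left (t ^ 2))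

/-- Truncation: the finite block-truncations of an element of `lp E 2` approximate it. -/
theorem exists_finset_truncation [DecidableEq α] (x : lp E 2) {δ : ℝ} (hδ : 0 < δ) :
    ∃ s : Finset α, ∀ s' : Finset α, s ⊆ s' → ‖x - ∑ i ∈ s', lp.single 2 i (x i)‖ < δ := by
  have h := lp.hasSum_single (by norm_num : (2 : ℝ≥0∞) ≠ ⊤) x
  rw [HasSum, Metric.tendsto_nhds] at h
  obtain ⟨s, hs⟩ := Filter.mem_atTop_sets.mp (h δ hδ)
  refine ⟨s, fun s' hs' => ?_⟩
  have := hs s' hs'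
  rw [Set.mem_ofPred_eq, dist_eq_norm, ← norm_neg, neg_sub] at this
  exact this

/-- Existential form of `not_finiteDimensional_lp_two`. -/
theorem not_finiteDimensional_lp (h : ∃ i, ¬ FiniteDimensional ℝ (E i)) :
    ¬ FiniteDimensional ℝ (lp E 2) := by
  obtain ⟨i, hi⟩ := h
  exact not_finiteDimensional_lp_two i hi

/-- The `i`-th coordinate projection of the `ℓ²`-sum, as a continuous linear map. -/
noncomputable def lpProj (i : α) : lp E 2 →L[ℝ] E i := lp.evalCLM ℝ E 2 i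

@[simp] theorem lpProj_apply (i : α) (x : lp E 2) : lpProj i x = x i := rfl

theorem norm_lpProj_apply_le (i : α) (x : lp E 2) : ‖lpProj i x‖ ≤ ‖x‖ :=
  lp.norm_apply_le_norm (by norm_num) x i

theorem norm_apply_le (i : α) (x : lp E 2) : ‖x i‖ ≤ ‖x‖ :=
  lp.norm_apply_le_norm (by norm_num) x i

theorem norm_lpProj_le (i : α) : ‖lpProj (E := E) i‖ ≤ 1 :=
  ContinuousLinearMap.opNorm_le_bound _ zero_le_one fun x => by
    rw [one_mul]; exact norm_lpProj_apply_le i x

/-- The inclusion of the `i`-th summand into the `ℓ²`-sum, as a linear isometry. -/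
noncomputable def lpSingle [DecidableEq α] (i : α) : E i →ₗᵢ[ℝ] lp E 2 :=
  { lp.lsingle (𝕜 := ℝ) (E := E) 2 i with
    norm_map' := fun x => lp.norm_single (by norm_num) i x }

@[simp] theorem lpSingle_apply [DecidableEq α] (i : α) (x : E i) :
    lpSingle i x = lp.single 2 i x := rfl

@[simp] theorem lpSingle_apply_self [DecidableEq α] (i : α) (x : E i) :
    (lpSingle i x : lp E 2) i = x := lp.single_apply_self 2 i x

theorem lpSingle_apply_ne [DecidableEq α] (i : α) (x : E i) {j : α} (hij : j ≠ i) :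
    (lpSingle i x : lp E 2) j = 0 := lp.single_apply_ne 2 i x hij

@[simp] theorem lpProj_lpSingle [DecidableEq α] (i : α) (x : E i) :
    lpProj i (lpSingle i x) = x := lp.single_apply_self 2 i x

theorem norm_lpSingle [DecidableEq α] (i : α) (x : E i) : ‖(lpSingle i x : lp E 2)‖ = ‖x‖ :=
  (lpSingle i).norm_map x

end LpSum

end Crest.Agent.Helper27
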