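import Mathlib
import Crest.Prelude.Def_AsymptoticConvexity

/-!
# Reflexivity kit (helper27)

`Reflexive X` : the canonical embedding of a real normed space into its bidual is surjective
(this is the body of `Crest.AnalysisR.RealBanach.IsReflexive`).

* `reflexive_of_hilbert` : real Hilbert spaces are reflexive.
* `Reflexive.of_equiv` : reflexivity transfers along a continuous linear equivalence.
* `reflexive_lp_two` : the `ℓ²`-sum (`lp E 2`) of reflexive spaces is reflexive.
-/

set_option autoImplicit false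

open scoped ENNReal

namespace Crest.Agent.Helper27

/-- Reflexivity of a real normed space: the canonical embedding into the bidual is onto. -/
def Reflexive (X : Type*) [NormedAddCommGroup X] [NormedSpace ℝ X] : Prop :=
  Function.Surjective (NormedSpace.inclusionInDoubleDual ℝ X)

section Hilbert

variable {H : Type*} [NormedAddCommGroup H] [InnerProductSpace ℝ H] [CompleteSpace H]

/-- A real Hilbert space is reflexive. -/
theorem reflexive_of_hilbert : Reflexive H := by
  intro Φ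
  -- the functional `y ↦ Φ ⟪y, ·⟫`
  let g : H →L[ℝ] ℝ :=
    LinearMap.mkContinuous
      { toFun := fun y => Φ (InnerProductSpace.toDual ℝ H y)
        map_add' := by intro a b; simp [map_add]
        map_smul' := by intro c a; simp [map_smul] }
      ‖Φ‖ (by
        intro y
        simpa using Φ.le_opNorm (InnerProductSpace.toDual ℝ H y))
  have hg : ∀ y, g y = Φ (InnerProductSpace.toDual ℝ H y) := fun y => rfl
  refine ⟨(InnerProductSpace.toDual ℝ H).symm g, ?_⟩
  ext ψ
  rw [NormedSpace.dual_def]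
  obtain ⟨y, rfl⟩ := (InnerProductSpace.toDual ℝ H).surjective ψ
  rw [← hg y, InnerProductSpace.toDual_apply_apply, real_inner_comm,
    ← InnerProductSpace.toDual_apply_apply (𝕜 := ℝ), LinearIsometryEquiv.apply_symm_apply]

end Hilbert

section Equiv

variable {X Y : Type*} [NormedAddCommGroup X] [NormedSpace ℝ X]
  [NormedAddCommGroup Y] [NormedSpace ℝ Y]

/-- Reflexivity transfers along a continuous linear equivalence. -/
theorem Reflexive.of_equiv (e : X ≃L[ℝ] Y) (hY : Reflexive Y) : Reflexive X := by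
  intro Φ
  let Φ' : StrongDual ℝ (StrongDual ℝ Y) :=
    Φ.comp ((ContinuousLinearMap.compL ℝ X Y ℝ).flip (e : X →L[ℝ] Y))
  have hΦ' : ∀ φ : StrongDual ℝ Y, Φ' φ = Φ (φ.comp (e : X →L[ℝ] Y)) := fun φ => rfl
  obtain ⟨y, hy⟩ := hY Φ'
  refine ⟨e.symm y, ?_⟩
  ext ψ
  rw [NormedSpace.dual_def]
  have h1 : ψ = (ψ.comp (e.symm : Y →L[ℝ] X)).comp (e : X →L[ℝ] Y) := by
    ext x; simp
  have h2 : Φ' (ψ.comp (e.symm : Y →L[ℝ] X)) = (ψ.comp (e.symm : Y →L[ℝ] X)) y := by
    rw [← hy, NormedSpace.dual_def]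
  rw [hΦ', ← h1] at h2
  rw [h2]; rfl

end Equiv

section LpTwo

variable {α : Type*} {E : α → Type*} [∀ i, NormedAddCommGroup (E i)] [∀ i, NormedSpace ℝ (E i)]

/-- The natural pairing `ℓ²(E*) → (ℓ²(E))*`, `η ↦ (y ↦ ∑' i, η i (y i))`. -/
noncomputable def lpPair : lp (fun i => StrongDual ℝ (E i)) 2 →L[ℝ] StrongDual ℝ (lp E 2) :=
  lp.dualPairing 2 2 (fun i => ContinuousLinearMap.id ℝ (StrongDual ℝ (E i))) (K := 1)
    (fun i => by simpa using ContinuousLinearMap.norm_id_le)

theorem lpPair_apply (η : lp (fun i => StrongDual ℝ (E i)) 2) (y : lp E 2) :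
    lpPair η y = ∑' i, η i (y i) := rfl

/-- Every continuous functional is half-normed by a vector of the unit ball. -/
theorem exists_half_norming {X : Type*} [NormedAddCommGroup X] [NormedSpace ℝ X]
    (φ : StrongDual ℝ X) : ∃ e : X, ‖e‖ ≤ 1 ∧ ‖φ‖ / 2 ≤ φ e := by
  by_cases h : φ = 0
  · exact ⟨0, by simp, by simp [h]⟩
  · have hpos : 0 < ‖φ‖ := norm_pos_iff.mpr h
    obtain ⟨x, hx1, hx2⟩ := φ.exists_lt_apply_of_lt_opNorm (r := ‖φ‖ / 2) (by linarith)
    rcases le_total 0 (φ x) with h0 | h0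
    · exact ⟨x, hx1.le, by rw [Real.norm_of_nonneg h0] at hx2; exact hx2.le⟩
    · refine ⟨-x, by simpa using hx1.le, ?_⟩
      rw [Real.norm_of_nonpos h0] at hx2
      simp only [map_neg]
      linarith

/-- The coordinate functionals of a functional on `ℓ²(E)` are square summable. -/
theorem memℓp_comp_single [DecidableEq α] (ψ : StrongDual ℝ (lp E 2)) :
    Memℓp (fun i => ψ.comp (lp.singleContinuousLinearMap ℝ E 2 i)) 2 := by
  apply memℓp_gen' (C := (2 * ‖ψ‖) ^ 2)
  intro s
  have h2 : (2 : ℝ≥0∞).toReal = 2 := by simp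
  have hp : 0 < (2 : ℝ≥0∞).toReal := by rw [h2]; norm_num
  choose e he1 he2 using fun i => exists_half_norming (ψ.comp (lp.singleContinuousLinearMap ℝ E 2 i))
  set a : α → ℝ := fun i => ‖ψ.comp (lp.singleContinuousLinearMap ℝ E 2 i)‖ with ha
  have ha0 : ∀ i, 0 ≤ a i := fun i => norm_nonneg _
  set S : ℝ := ∑ i ∈ s, a i ^ 2 with hS
  have hS0 : 0 ≤ S := Finset.sum_nonneg fun i _ => sq_nonneg _
  set y : lp E 2 := ∑ i ∈ s, lp.single 2 i (a i • e i) with hy
  have hy2 : ‖y‖ ^ 2 ≤ S := by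
    have h := lp.norm_sum_single (E := E) hp (fun i => a i • e i) s
    rw [h2] at h
    simp only [Real.rpow_two] at h
    rw [hy, h, hS]
    apply Finset.sum_le_sum
    intro i _
    rw [norm_smul, Real.norm_of_nonneg (ha0 i)]
    have : a i * ‖e i‖ ≤ a i * 1 := mul_le_mul_of_nonneg_left (he1 i) (ha0 i)
    have h0 : 0 ≤ a i * ‖e i‖ := mul_nonneg (ha0 i) (norm_nonneg _)
    nlinarith
  have hψy : S / 2 ≤ ψ y := by
    rw [hy, map_sum, hS, Finset.sum_div]
    apply Finset.sum_le_sum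
    intro i _
    have h1 : ψ (lp.single 2 i (a i • e i)) =
        a i * (ψ.comp (lp.singleContinuousLinearMap ℝ E 2 i)) (e i) := by
      rw [lp.single_smul, map_smul]; rfl
    rw [h1]
    have := mul_le_mul_of_nonneg_left (he2 i) (ha0 i)
    nlinarith
  have hψy' : ψ y ≤ ‖ψ‖ * ‖y‖ := (le_abs_self _).trans (ψ.le_opNorm y)
  have hn0 : 0 ≤ ‖y‖ := norm_nonneg _
  have hc0 : 0 ≤ ‖ψ‖ := norm_nonneg _
  have key : S ≤ (2 * ‖ψ‖) ^ 2 := by
    rcases eq_or_lt_of_le hn0 with h0 | h0
    · rw [← h0] at hψy'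
      nlinarith
    · have hn : ‖y‖ ≤ 2 * ‖ψ‖ := by
        by_contra hcon
        rw [not_le] at hcon
        nlinarith
      nlinarith
  calc ∑ i ∈ s, ‖ψ.comp (lp.singleContinuousLinearMap ℝ E 2 i)‖ ^ (2 : ℝ≥0∞).toReal
      = S := by rw [h2, hS]; simp only [Real.rpow_two]; rfl
    _ ≤ (2 * ‖ψ‖) ^ 2 := key

/-- The pairing `ℓ²(E*) → (ℓ²(E))*` is onto. -/
theorem lpPair_surjective : Function.Surjective (lpPair (E := E)) := by
  classical
  intro ψ
  refine ⟨⟨fun i => ψ.comp (lp.singleContinuousLinearMap ℝ E 2 i), memℓp_comp_single ψ⟩, ?_⟩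
  ext y
  rw [lpPair_apply]
  have h := (lp.hasSum_single (by norm_num : (2 : ℝ≥0∞) ≠ ⊤) y).mapL ψ
  exact h.tsum_eq

/-- The `ℓ²`-sum of reflexive spaces is reflexive. -/
theorem reflexive_lp_two (h : ∀ i, Reflexive (E i)) : Reflexive (lp E 2) := by
  classical
  intro Φ
  obtain ⟨ξ, hξ⟩ := lpPair_surjective (E := fun i => StrongDual ℝ (E i)) (Φ.comp lpPair)
  choose x hx using fun i => h i (ξ i)
  have hxn : ∀ i, ‖x i‖ = ‖ξ i‖ := fun i => by
    rw [← hx i]; exact ((NormedSpace.inclusionInDoubleDualLi ℝ).norm_map (x i)).symm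
  have hmem : Memℓp x 2 := (lp.memℓp ξ).mono' (fun i => (hxn i).le)
  refine ⟨⟨x, hmem⟩, ?_⟩
  ext ψ
  obtain ⟨η, rfl⟩ := lpPair_surjective ψ
  rw [NormedSpace.dual_def, lpPair_apply]
  have h1 : Φ (lpPair η) = lpPair ξ η := by rw [hξ]; rfl
  rw [h1, lpPair_apply]
  congr 1
  ext i
  rw [← hx i]
  rfl

end LpTwo

section Bridge

/-- `RealBanach.IsReflexive` is `Reflexive` of the underlying space. -/
theorem isReflexive_iff (E : Crest.AnalysisR.RealBanach) :
    E.IsReflexive ↔ @Reflexive E.X E.normed E.space := Iff.rfl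

/-- A `RealBanach` record built from a reflexive space is reflexive. -/
theorem isReflexive_mk {X : Type} [NormedAddCommGroup X] [NormedSpace ℝ X] [CompleteSpace X]
    (h : Reflexive X) :
    (Crest.AnalysisR.RealBanach.mk X inferInstance inferInstance inferInstance).IsReflexive := h

end Bridge

end Crest.Agent.Helper27
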