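import Mathlib
import Crest.Agent.Helper27.Reflexive
import Crest.Agent.Helper27.LpSum
import Crest.Agent.Helper7.TreeDefs

/-!
# Reflexivity of the S0166 witness space, from reflexivity of the blocks (helper27)
-/

set_option autoImplicit false

namespace Crest.Agent.Helper27

open Crest.Agent.Helper7

/-- The `ℓ²`-sum of the blocks is reflexive as soon as every block is. -/
theorem sumSpace_reflexive_of
    (h : ∀ n : ℕ, Function.Surjective (NormedSpace.inclusionInDoubleDual ℝ (Tree.Block n))) :
    Function.Surjective (NormedSpace.inclusionInDoubleDual ℝ Tree.SumSpace) :=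
  reflexive_lp_two h

/-- Record form: the S0166 witness space is reflexive as soon as every block is. -/
theorem sumBanach_isReflexive_of
    (h : ∀ n : ℕ, Function.Surjective (NormedSpace.inclusionInDoubleDual ℝ (Tree.Block n))) :
    Tree.sumBanach.IsReflexive :=
  sumSpace_reflexive_of h

end Crest.Agent.Helper27
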