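import Mathlib
import Crest.Agent.Helper27.SumRefl
import Crest.Agent.Helper4.BlockIso

/-!
# The S0166 witness space is reflexive (helper27; blocks by helper4)
-/

set_option autoImplicit false

namespace Crest.Agent.Helper27

open Crest.Agent.Helper7

/-- The `ℓ²`-sum of the blocks is reflexive. -/
theorem sumSpace_reflexive :
    Function.Surjective (NormedSpace.inclusionInDoubleDual ℝ Tree.SumSpace) :=
  sumSpace_reflexive_of Crest.Agent.Helper4.block_reflexive

/-- The S0166 witness space is reflexive (record form). -/
theorem sumBanach_isReflexive : Tree.sumBanach.IsReflexive :=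
  sumBanach_isReflexive_of Crest.Agent.Helper4.block_reflexive

end Crest.Agent.Helper27
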