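import Mathlib

/-!
# Row 211: assembly of S0324 and S0325 from the cover, the area kit and the projection bounds
(helper27)

The inputs are taken as explicit hypotheses in the frozen shapes of the team build:
* `TetCoverStmt` : an explicit finite cover of the tetrahedron by triangle cylinders of total base
  area at most `√2 (1/2 - 10⁻⁶)` with at most `15·10⁶` cylinders;
* `AreaTriStmt` : the area formula for triangles;
* `ProjGeStmt`, `ProjNeTopStmt`, `ProjE1Stmt` : the projection bounds.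
-/

set_option autoImplicit false
set_option linter.unusedVariables false

open MeasureTheory
open scoped ENNReal

namespace Crest.Agent.Helper27

/-- Euclidean 3-space. -/
abbrev E3 : Type := EuclideanSpace ℝ (Fin 3)

/-- The standard regular tetrahedron (the literal set of S0324/S0325). -/
abbrev K0 : Set E3 :=
  convexHull ℝ {!₂[1, 0, 0], !₂[-1, 0, 0], !₂[0, 1, Real.sqrt 2], !₂[0, -1, Real.sqrt 2]}

/-- Shape of the explicit cover. -/
def TetCoverStmt : Prop :=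
  ∃ (m : ℕ) (u p q r : Fin m → E3), 0 < m ∧ m ≤ 15000000 ∧ (∀ i, ‖u i‖ = 1) ∧
    (∀ i, inner ℝ (p i) (u i) = 0 ∧ inner ℝ (q i) (u i) = 0 ∧ inner ℝ (r i) (u i) = 0) ∧
    (∀ i, 0 < ‖q i - p i‖ ^ 2 * ‖r i - p i‖ ^ 2 - inner ℝ (q i - p i) (r i - p i) ^ 2) ∧
    K0 ⊆ ⋃ i, {x : E3 | ∃ b ∈ convexHull ℝ {p i, q i, r i}, ∃ t : ℝ, x = b + t • u i} ∧
    ∑ i, Real.sqrt (‖q i - p i‖ ^ 2 * ‖r i - p i‖ ^ 2 - inner ℝ (q i - p i) (r i - p i) ^ 2) / 2 ≤
      Real.sqrt 2 * (1 / 2 - 1 / 1000000)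

/-- Shape of the area formula for triangles. -/
def AreaTriStmt : Prop :=
  ∀ p q r : E3, μHE[2] (convexHull ℝ {p, q, r}) =
    ENNReal.ofReal (Real.sqrt (‖q - p‖ ^ 2 * ‖r - p‖ ^ 2 - inner ℝ (q - p) (r - p) ^ 2) / 2)

/-- Shape of the lower bound for the projections. -/
def ProjGeStmt : Prop :=
  ∀ v : E3, ‖v‖ = 1 →
    ENNReal.ofReal (Real.sqrt 2) ≤ μHE[2] ((fun y => y - inner ℝ y v • v) '' K0)

/-- Shape of the finiteness of the projections. -/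
def ProjNeTopStmt : Prop :=
  ∀ v : E3, ‖v‖ = 1 → μHE[2] ((fun y => y - inner ℝ y v • v) '' K0) ≠ ⊤

/-- Shape of the value of the projection along the first axis. -/
def ProjE1Stmt : Prop :=
  μHE[2] ((fun y => y - inner ℝ y (!₂[1, 0, 0] : E3) • (!₂[1, 0, 0] : E3)) '' K0) =
    ENNReal.ofReal (Real.sqrt 2)

/-! ### Padding a finite family -/

/-- Pad a family indexed by `Fin m` to one indexed by `Fin N`: entry `m` is `xm`, later entries
are `x0`. -/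
def padFun {X : Type*} (m N : ℕ) (x : Fin m → X) (xm x0 : X) : Fin N → X :=
  fun i => if h : i.1 < m then x ⟨i.1, h⟩ else if i.1 = m then xm else x0

theorem padFun_forall {X : Type*} (m N : ℕ) (x : Fin m → X) (xm x0 : X) {P : X → Prop}
    (hx : ∀ i, P (x i)) (hm : P xm) (h0 : P x0) (i : Fin N) : P (padFun m N x xm x0 i) := by
  unfold padFun
  split_ifs
  · exact hx _
  · exact hm
  · exact h0

theorem padFun_of_lt {X : Type*} (m N : ℕ) (x : Fin m → X) (xm x0 : X) (i : Fin m)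
    (hi : i.1 < N) : padFun m N x xm x0 ⟨i.1, hi⟩ = x i := by
  unfold padFun
  simp only [dif_pos i.2]

theorem sum_padFun {X : Type*} (m N : ℕ) (hmN : m < N) (x : Fin m → X) (xm x0 : X)
    (G : X → ℝ) (h0 : G x0 = 0) :
    ∑ i, G (padFun m N x xm x0 i) = ∑ i, G (x i) + G xm := by
  let F : ℕ → ℝ := fun k => if h : k < m then G (x ⟨k, h⟩) else if k = m then G xm else 0
  have h1 : ∀ i : Fin N, G (padFun m N x xm x0 i) = F i.1 := by
    intro i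
    unfold padFun
    simp only [F]
    split_ifs
    · rfl
    · rfl
    · exact h0
  have h2 : ∀ i : Fin m, G (x i) = F i.1 := by
    intro i
    simp only [F, dif_pos i.2]
  rw [Finset.sum_congr rfl (fun i _ => h1 i), Finset.sum_congr rfl (fun i _ => h2 i),
    Fin.sum_univ_eq_sum_range F N, Fin.sum_univ_eq_sum_range F m,
    ← Finset.sum_range_add_sum_Ico F (Nat.succ_le_of_lt hmN), Finset.sum_range_succ]
  have h4 : ∑ k ∈ Finset.Ico (m + 1) N, F k = 0 := by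
    apply Finset.sum_eq_zero
    intro k hk
    rw [Finset.mem_Ico] at hk
    have hk1 : ¬ k < m := by omega
    have hk2 : ¬ k = m := by omega
    simp only [F, dif_neg hk1, if_neg hk2]
  have h5 : F m = G xm := by
    simp only [F, dif_neg (lt_irrefl m), if_true]
  rw [h4, h5, add_zero]

/-! ### Elementary facts on the coordinate vectors -/

theorem norm_e1 : ‖(!₂[1, 0, 0] : E3)‖ = 1 := by
  simp [EuclideanSpace.norm_eq, Fin.sum_univ_three]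

theorem norm_e2 : ‖(!₂[0, 1, 0] : E3)‖ = 1 := by
  simp [EuclideanSpace.norm_eq, Fin.sum_univ_three]

theorem norm_e3 : ‖(!₂[0, 0, 1] : E3)‖ = 1 := by
  simp [EuclideanSpace.norm_eq, Fin.sum_univ_three]

theorem inner_e2_e1 : inner ℝ (!₂[0, 1, 0] : E3) (!₂[1, 0, 0] : E3) = 0 := by
  simp [PiLp.inner_apply, Fin.sum_univ_three]

theorem inner_e3_e1 : inner ℝ (!₂[0, 0, 1] : E3) (!₂[1, 0, 0] : E3) = 0 := by
  simp [PiLp.inner_apply, Fin.sum_univ_three]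

theorem inner_e2_e3 : inner ℝ (!₂[0, 1, 0] : E3) (!₂[0, 0, 1] : E3) = 0 := by
  simp [PiLp.inner_apply, Fin.sum_univ_three]

/-- The Gram expression of the tuning triangle `0, e₂, 2a e₃`. -/
theorem gram_tuning (a : ℝ) (ha : 0 ≤ a) :
    Real.sqrt (‖(!₂[0, 1, 0] : E3) - 0‖ ^ 2 * ‖(2 * a) • (!₂[0, 0, 1] : E3) - 0‖ ^ 2 -
      inner ℝ ((!₂[0, 1, 0] : E3) - 0) ((2 * a) • (!₂[0, 0, 1] : E3) - 0) ^ 2) / 2 = a := by
  rw [sub_zero, sub_zero, norm_smul, norm_e2, norm_e3, inner_smul_right, inner_e2_e3]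
  have h : (1 : ℝ) ^ 2 * (‖2 * a‖ * 1) ^ 2 - (2 * a * 0) ^ 2 = (2 * a) ^ 2 := by
    rw [Real.norm_eq_abs, abs_of_nonneg (by linarith)]
    ring
  rw [h, Real.sqrt_sq (by linarith)]
  ring

/-- The Gram expression of a degenerate triangle. -/
theorem gram_zero :
    Real.sqrt (‖(0 : E3) - 0‖ ^ 2 * ‖(0 : E3) - 0‖ ^ 2 - inner ℝ ((0 : E3) - 0) ((0 : E3) - 0) ^ 2) / 2
      = 0 := by
  simp

/-! ### S0325 -/

/-- S0325 from the cover, the area formula and the projection bounds. -/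
theorem s0325_of (hT : TetCoverStmt) (hA : AreaTriStmt) (hP : ProjGeStmt) (hE : ProjE1Stmt) :
    ((∀ v : EuclideanSpace ℝ (Fin 3), ‖v‖ = 1 →
        ENNReal.ofReal (Real.sqrt 2) ≤ μHE[2] ((fun y => y - inner ℝ y v • v) '' convexHull ℝ {!₂[1, 0, 0], !₂[-1, 0, 0], !₂[0, 1, Real.sqrt 2], !₂[0, -1, Real.sqrt 2]})) ∧
      ∃ v : EuclideanSpace ℝ (Fin 3), ‖v‖ = 1 ∧
        μHE[2] ((fun y => y - inner ℝ y v • v) '' convexHull ℝ {!₂[1, 0, 0], !₂[-1, 0, 0], !₂[0, 1, Real.sqrt 2], !₂[0, -1, Real.sqrt 2]}) = ENNReal.ofReal (Real.sqrt 2)) ∧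
    ∀ ε : ℝ, 0 < ε → ε ≤ 1 / 2000 →
      ∃ (u p q r : Fin (2 * ⌈2 / ε ^ 2⌉₊) → EuclideanSpace ℝ (Fin 3)),
        (∀ i, ‖u i‖ = 1) ∧
        (∀ i, inner ℝ (p i) (u i) = 0 ∧ inner ℝ (q i) (u i) = 0 ∧ inner ℝ (r i) (u i) = 0) ∧
        convexHull ℝ {!₂[1, 0, 0], !₂[-1, 0, 0], !₂[0, 1, Real.sqrt 2], !₂[0, -1, Real.sqrt 2]} ⊆
          ⋃ i, {x : EuclideanSpace ℝ (Fin 3) | ∃ b ∈ convexHull ℝ {p i, q i, r i}, ∃ t : ℝ, x = b + t • u i} ∧
        abs ((∑ i, (μHE[2] (convexHull ℝ ({p i, q i, r i} : Set (EuclideanSpace ℝ (Fin 3))))).toReal) / Real.sqrt 2 -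
            (1 / 2 - 13 / 6000 * ε ^ 2)) ≤ 2 * ε ^ 4 := by
  refine ⟨⟨hP, !₂[1, 0, 0], norm_e1, hE⟩, ?_⟩
  intro ε hε hε2
  obtain ⟨m, u, p, q, r, hm0, hm, hu, hperp, hnd, hcov, harea⟩ := hT
  have hεsq : ε ^ 2 ≤ (1 / 2000) ^ 2 := pow_le_pow_left₀ hε.le hε2 2
  have hmN : m < 2 * ⌈2 / ε ^ 2⌉₊ := by
    have h1 : (8000000 : ℝ) ≤ 2 / ε ^ 2 := by
      rw [le_div_iff₀ (by positivity)]
      nlinarith
    have h2 : (8000000 : ℝ) ≤ (⌈2 / ε ^ 2⌉₊ : ℝ) := h1.trans (Nat.le_ceil _)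
    have h3 : 8000000 ≤ ⌈2 / ε ^ 2⌉₊ := by exact_mod_cast h2
    omega
  generalize 2 * ⌈2 / ε ^ 2⌉₊ = N at hmN ⊢
  set S : ℝ := ∑ i, Real.sqrt (‖q i - p i‖ ^ 2 * ‖r i - p i‖ ^ 2 -
    inner ℝ (q i - p i) (r i - p i) ^ 2) / 2 with hS
  set a : ℝ := Real.sqrt 2 * (1 / 2 - 13 / 6000 * ε ^ 2) - S with ha
  have hs2 : 0 < Real.sqrt 2 := Real.sqrt_pos.mpr (by norm_num)
  have ha0 : 0 ≤ a := by
    have h1 : Real.sqrt 2 * (1 / 2 - 1 / 1000000) ≤
        Real.sqrt 2 * (1 / 2 - 13 / 6000 * ε ^ 2) := by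
      apply mul_le_mul_of_nonneg_left _ hs2.le
      nlinarith
    linarith
  let x : Fin m → E3 × E3 × E3 × E3 := fun i => (u i, p i, q i, r i)
  let xm : E3 × E3 × E3 × E3 := (!₂[1, 0, 0], 0, !₂[0, 1, 0], (2 * a) • !₂[0, 0, 1])
  let x0 : E3 × E3 × E3 × E3 := (!₂[1, 0, 0], 0, 0, 0)
  let y : Fin N → E3 × E3 × E3 × E3 := padFun m N x xm x0
  refine ⟨fun i => (y i).1, fun i => (y i).2.1, fun i => (y i).2.2.1, fun i => (y i).2.2.2,
    ?_, ?_, ?_, ?_⟩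
  · intro i
    exact padFun_forall m N x xm x0 (P := fun z => ‖z.1‖ = 1) hu norm_e1 norm_e1 i
  · intro i
    refine padFun_forall m N x xm x0
      (P := fun z => inner ℝ z.2.1 z.1 = 0 ∧ inner ℝ z.2.2.1 z.1 = 0 ∧ inner ℝ z.2.2.2 z.1 = 0)
      hperp ?_ ?_ i
    · refine ⟨inner_zero_left _, inner_e2_e1, ?_⟩
      show inner ℝ ((2 * a) • (!₂[0, 0, 1] : E3)) (!₂[1, 0, 0] : E3) = 0
      rw [inner_smul_left, inner_e3_e1, mul_zero]
    · exact ⟨inner_zero_left _, inner_zero_left _, inner_zero_left _⟩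
  · intro z hz
    obtain ⟨i, hi⟩ := Set.mem_iUnion.mp (hcov hz)
    refine Set.mem_iUnion.mpr ⟨⟨i.1, lt_trans i.2 hmN⟩, ?_⟩
    have hyi : y ⟨i.1, lt_trans i.2 hmN⟩ = x i := padFun_of_lt m N x xm x0 i _
    show ∃ b ∈ convexHull ℝ {(y ⟨i.1, lt_trans i.2 hmN⟩).2.1, (y ⟨i.1, lt_trans i.2 hmN⟩).2.2.1,
      (y ⟨i.1, lt_trans i.2 hmN⟩).2.2.2}, ∃ t : ℝ, z = b + t • (y ⟨i.1, lt_trans i.2 hmN⟩).1
    rw [hyi]
    exact hi
  · let G : E3 × E3 × E3 × E3 → ℝ := fun z =>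
      (μHE[2] (convexHull ℝ ({z.2.1, z.2.2.1, z.2.2.2} : Set E3))).toReal
    have hG : ∀ z : E3 × E3 × E3 × E3, G z = Real.sqrt (‖z.2.2.1 - z.2.1‖ ^ 2 *
        ‖z.2.2.2 - z.2.1‖ ^ 2 - inner ℝ (z.2.2.1 - z.2.1) (z.2.2.2 - z.2.1) ^ 2) / 2 := by
      intro z
      simp only [G]
      rw [hA, ENNReal.toReal_ofReal (by positivity)]
    have hsum : ∑ i, G (y i) = S + a := by
      rw [sum_padFun m N hmN x xm x0 G (by rw [hG]; exact gram_zero)]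
      congr 1
      · exact Finset.sum_congr rfl (fun i _ => hG (x i))
      · rw [hG]; exact gram_tuning a ha0
    show abs ((∑ i, G (y i)) / Real.sqrt 2 - (1 / 2 - 13 / 6000 * ε ^ 2)) ≤ 2 * ε ^ 4
    rw [hsum, ha]
    have h0 : (S + (Real.sqrt 2 * (1 / 2 - 13 / 6000 * ε ^ 2) - S)) / Real.sqrt 2 -
        (1 / 2 - 13 / 6000 * ε ^ 2) = 0 := by
      field_simp
      ring
    rw [h0, abs_zero]
    positivity

/-! ### S0324 -/

/-- The scaling constant between `μHE[2]` and `μH[2]`. -/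
noncomputable def kappa2 : NNReal :=
  Measure.addHaarScalarFactor (volume : Measure (EuclideanSpace ℝ (Fin 2)))
    (μH[((2 : ℕ) : ℝ)] : Measure (EuclideanSpace ℝ (Fin 2)))

theorem kappa2_ne_zero : kappa2 ≠ 0 :=
  Measure.addHaarScalarFactor_volume_hausdorffMeasure_ne_zero 2

theorem muHE_eq_kappa_mul (s : Set E3) :
    (μHE[2] : Measure E3) s = (kappa2 : ℝ≥0∞) * (μH[(2 : ℝ)] : Measure E3) s := by
  rw [Measure.euclideanHausdorffMeasure_def, Measure.smul_apply]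
  norm_num
  rfl

theorem muH_toReal (s : Set E3) :
    ((μH[(2 : ℝ)] : Measure E3) s).toReal = ((μHE[2] : Measure E3) s).toReal / (kappa2 : ℝ) := by
  have hk : (0 : ℝ) < (kappa2 : ℝ) := lt_of_le_of_ne kappa2.2 (by
    intro h
    exact kappa2_ne_zero (NNReal.coe_eq_zero.mp h.symm))
  rw [muHE_eq_kappa_mul, ENNReal.toReal_mul, ENNReal.coe_toReal]
  field_simp

/-- S0324 from the cover, the area formula and the projection bounds. -/
theorem s0324_of (hT : TetCoverStmt) (hA : AreaTriStmt) (hP : ProjGeStmt) (hPt : ProjNeTopStmt) :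
    ∃ (m : ℕ) (u p q r : Fin m → EuclideanSpace ℝ (Fin 3)),
      (∀ i, ‖u i‖ = 1) ∧
      (∀ i, inner ℝ (p i) (u i) = 0 ∧ inner ℝ (q i) (u i) = 0 ∧ inner ℝ (r i) (u i) = 0) ∧
      convexHull ℝ {!₂[1, 0, 0], !₂[-1, 0, 0], !₂[0, 1, Real.sqrt 2], !₂[0, -1, Real.sqrt 2]} ⊆
        ⋃ i, {x : EuclideanSpace ℝ (Fin 3) | ∃ b ∈ convexHull ℝ {p i, q i, r i}, ∃ t : ℝ, x = b + t • u i} ∧
      ∃ δ : ℝ, 0 < δ ∧ ∀ v : EuclideanSpace ℝ (Fin 3), ‖v‖ = 1 →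
        ∑ i, (μH[(2 : ℝ)] (convexHull ℝ {p i, q i, r i})).toReal + δ ≤
          (μH[(2 : ℝ)] ((fun y => y - inner ℝ y v • v) '' convexHull ℝ {!₂[1, 0, 0], !₂[-1, 0, 0], !₂[0, 1, Real.sqrt 2], !₂[0, -1, Real.sqrt 2]})).toReal / 2 := by
  obtain ⟨m, u, p, q, r, hm0, hm, hu, hperp, hnd, hcov, harea⟩ := hT
  refine ⟨m, u, p, q, r, hu, hperp, hcov, ?_⟩
  have hk : (0 : ℝ) < (kappa2 : ℝ) := lt_of_le_of_ne kappa2.2 (by
    intro h
    exact kappa2_ne_zero (NNReal.coe_eq_zero.mp h.symm))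
  have hs2 : 0 < Real.sqrt 2 := Real.sqrt_pos.mpr (by norm_num)
  refine ⟨Real.sqrt 2 * (1 / 1000000) / (kappa2 : ℝ), by positivity, ?_⟩
  intro v hv
  have hsum : ∑ i, (μH[(2 : ℝ)] (convexHull ℝ {p i, q i, r i})).toReal =
      (∑ i, Real.sqrt (‖q i - p i‖ ^ 2 * ‖r i - p i‖ ^ 2 -
        inner ℝ (q i - p i) (r i - p i) ^ 2) / 2) / (kappa2 : ℝ) := by
    rw [Finset.sum_div]
    refine Finset.sum_congr rfl fun i _ => ?_
    rw [muH_toReal, hA, ENNReal.toReal_ofReal (by positivity)]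
  have hproj : Real.sqrt 2 ≤ (μHE[2] ((fun y => y - inner ℝ y v • v) '' K0)).toReal := by
    have h1 := ENNReal.toReal_mono (hPt v hv) (hP v hv)
    rwa [ENNReal.toReal_ofReal hs2.le] at h1
  rw [hsum, muH_toReal]
  have h2 : (∑ i, Real.sqrt (‖q i - p i‖ ^ 2 * ‖r i - p i‖ ^ 2 -
      inner ℝ (q i - p i) (r i - p i) ^ 2) / 2) / (kappa2 : ℝ) +
      Real.sqrt 2 * (1 / 1000000) / (kappa2 : ℝ) ≤ Real.sqrt 2 / (kappa2 : ℝ) / 2 := by
    rw [← add_div, div_div, div_le_div_iff₀ hk (by positivity)]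
    nlinarith
  have h3 : Real.sqrt 2 / (kappa2 : ℝ) / 2 ≤
      (μHE[2] ((fun y => y - inner ℝ y v • v) '' K0)).toReal / (kappa2 : ℝ) / 2 := by
    apply div_le_div_of_nonneg_right _ (by norm_num)
    exact div_le_div_of_nonneg_right hproj hk.le
  exact h2.trans h3

end Crest.Agent.Helper27
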